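import Mathlib

namespace Vale.Agent.P195

open Submodule

section Length
variable {C : Type*} [CommRing C] [IsArtinianRing C]
variable {X Y : Type*} [AddCommGroup X] [Module C X] [Module.Finite C X]
  [AddCommGroup Y] [Module C Y] [Module.Finite C Y]

/-- Length over the base ring of a submodule, as a natural number. -/
noncomputable def ell (S : Submodule C X) : ℕ := (Module.length C S).toNat

omit [IsArtinianRing C] [Module.Finite C X] in
lemma ell_def (S : Submodule C X) : ell S = (Module.length C S).toNat := rfl

lemma length_eq_ell (S : Submodule C X) : Module.length C S = (ell S : ℕ∞) :=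
  (ENat.natCast_toNat Module.length_ne_top).symm

/-- Rank-nullity on a submodule. -/
lemma ell_eq_add (f : X →ₗ[C] Y) (S : Submodule C X) :
    ell S = ell (S ⊓ LinearMap.ker f) + ell (S.map f) := by
  let g : S →ₗ[C] S.map f := (f.domRestrict S).codRestrict (S.map f) (by
    intro x; exact Submodule.mem_map_of_mem x.2)
  have hg : Function.Surjective g := by
    rintro ⟨y, hy⟩
    obtain ⟨x, hx, rfl⟩ := Submodule.mem_map.mp hy
    exact ⟨⟨x, hx⟩, rfl⟩
  let i : ↥(S ⊓ LinearMap.ker f) →ₗ[C] S := Submodule.inclusion inf_le_left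
  have hi : Function.Injective i := Submodule.inclusion_injective _
  have hex : Function.Exact i g := by
    intro x
    constructor
    · intro hx
      have : f (x : X) = 0 := congrArg Subtype.val hx
      exact ⟨⟨x, x.2, this⟩, rfl⟩
    · rintro ⟨y, rfl⟩
      apply Subtype.ext
      exact y.2.2
  have := Module.length_eq_add_of_exact i g hi hg hex
  rw [length_eq_ell, length_eq_ell, length_eq_ell] at this
  exact_mod_cast this

lemma ell_mono {S T : Submodule C X} (h : S ≤ T) : ell S ≤ ell T := by
  have := Module.length_le_of_injective (R := C) (Submodule.inclusion h)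
    (Submodule.inclusion_injective h)
  rw [length_eq_ell, length_eq_ell] at this
  exact_mod_cast this

lemma ell_eq_of_le_of_le {S T : Submodule C X} (h : S ≤ T) (h2 : ell T ≤ ell S) : S = T := by
  by_contra hne
  -- the inclusion of `S` in `T` is a proper submodule
  let S' : Submodule C T := S.comap T.subtype
  have hS' : S' ≠ ⊤ := by
    intro h3
    apply hne
    apply le_antisymm h
    intro x hx
    have : (⟨x, hx⟩ : T) ∈ S' := by rw [h3]; trivial
    exact this
  have h4 := Submodule.length_lt hS'
  have hiso : S' ≃ₗ[C] S := Submodule.comapSubtypeEquivOfLe h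
  rw [hiso.length_eq, length_eq_ell, length_eq_ell] at h4
  have h5 : ell S < ell T := by exact_mod_cast h4
  omega

lemma ell_lt_of_lt {S T : Submodule C X} (h : S < T) : ell S < ell T := by
  by_contra h2
  exact h.ne (ell_eq_of_le_of_le h.le (by omega))

lemma ell_pos_iff {S : Submodule C X} : 0 < ell S ↔ S ≠ ⊥ := by
  constructor
  · rintro h rfl
    have : ell (⊥ : Submodule C X) = 0 := by
      simp [ell]
    omega
  · intro h
    have h1 : (⊥ : Submodule C X) < S := bot_lt_iff_ne_bot.mpr h
    have := ell_lt_of_lt h1
    omega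

omit [IsArtinianRing C] [Module.Finite C X] in
lemma ell_eq_of_equiv {X' : Type*} [AddCommGroup X'] [Module C X'] (S : Submodule C X)
    (S' : Submodule C X') (e : S ≃ₗ[C] S') : ell S = ell S' := by
  simp only [ell, e.length_eq]

/-- The product submodule. -/
def piS (n : ℕ) (S : Submodule C X) : Submodule C (Fin n → X) :=
  Submodule.pi Set.univ (fun _ => S)

omit [IsArtinianRing C] [Module.Finite C X] in
@[simp] lemma mem_piS {n : ℕ} {S : Submodule C X} {v : Fin n → X} :
    v ∈ piS n S ↔ ∀ i, v i ∈ S := by
  simp [piS, Submodule.mem_pi]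

lemma ell_piS (n : ℕ) (S : Submodule C X) : ell (piS n S) = n * ell S := by
  let e : piS n S ≃ₗ[C] (Fin n → S) :=
    { toFun := fun v i => ⟨v.1 i, mem_piS.mp v.2 i⟩
      invFun := fun w => ⟨fun i => (w i).1, mem_piS.mpr fun i => (w i).2⟩
      left_inv := fun v => rfl
      right_inv := fun w => rfl
      map_add' := fun v w => rfl
      map_smul' := fun c v => rfl }
  have h := Module.length_pi_of_fintype C (fun _ : Fin n => S)
  simp only [Finset.sum_const, Finset.card_univ, Fintype.card_fin, nsmul_eq_mul] at h
  simp only [ell_def]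
  rw [e.length_eq, h, length_eq_ell]
  simp [ell_def]

omit [IsArtinianRing C] [Module.Finite C X] in
lemma piS_top (n : ℕ) : piS n (⊤ : Submodule C X) = ⊤ := by
  ext v; simp

omit [IsArtinianRing C] [Module.Finite C X] in
lemma piS_mono (n : ℕ) {S T : Submodule C X} (h : S ≤ T) : piS n S ≤ piS n T := by
  intro v hv
  exact mem_piS.mpr fun i => h (mem_piS.mp hv i)

/-- Key counting identity: if the kernel of `f` on `B` lies in `A ≤ B`, then the colength of
`A` in `B` equals that of the images. -/
lemma ell_image_identity (f : X →ₗ[C] Y) {A B : Submodule C X} (hAB : A ≤ B)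
    (hker : B ⊓ LinearMap.ker f ≤ A) :
    ell B + ell (A.map f) = ell A + ell (B.map f) := by
  have h1 := ell_eq_add f B
  have h2 := ell_eq_add f A
  have h3 : A ⊓ LinearMap.ker f = B ⊓ LinearMap.ker f := by
    apply le_antisymm
    · exact inf_le_inf_right _ hAB
    · exact le_inf hker inf_le_right
  rw [h3] at h2
  omega

/-- Modular law for lengths. -/
lemma ell_sup_add_inf (A B : Submodule C X) :
    ell (A ⊔ B) + ell (A ⊓ B) = ell A + ell B := by
  -- apply rank-nullity to the quotient map by `B`
  have h1 := ell_eq_add B.mkQ (A ⊔ B)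
  have h2 := ell_eq_add B.mkQ A
  have h3 : (A ⊔ B) ⊓ LinearMap.ker B.mkQ = B := by
    rw [Submodule.ker_mkQ]; exact inf_eq_right.mpr le_sup_right
  have h4 : A ⊓ LinearMap.ker B.mkQ = A ⊓ B := by
    rw [Submodule.ker_mkQ]
  have h5 : (A ⊔ B).map B.mkQ = A.map B.mkQ := by
    rw [Submodule.map_sup, Submodule.mkQ_map_self, sup_bot_eq]
  rw [h3, h5] at h1
  rw [h4] at h2
  omega

end Length

end Vale.Agent.P195
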