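import Mathlib

namespace Vale.Agent.P195

universe u

section Local
variable {R : Type u} [Ring R] [IsLocalRing R]

omit [Ring R] [IsLocalRing R] in
/-- In a local ring, a left invertible element is a unit. -/
lemma isUnit_of_left_inv [Ring R] [IsLocalRing R] {s x : R} (h : s * x = 1) : IsUnit x := by
  have hadd : x * s + (1 - x * s) = 1 := by abel
  rcases IsLocalRing.isUnit_or_isUnit_of_add_one hadd with h1 | h1
  · obtain ⟨v, hv⟩ := h1.exists_right_inv
    have hv' : x * (s * v) = 1 := by rw [← mul_assoc]; exact hv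
    exact ⟨⟨x, s * v, hv', by
      have : s = s * v := by
        calc s = s * (x * (s * v)) := by rw [hv', mul_one]
          _ = (s * x) * (s * v) := by rw [mul_assoc]
          _ = s * v := by rw [h, one_mul]
      rw [← this, h]⟩, rfl⟩
  · exfalso
    have h2 : (x * s) * (1 - x * s) = 0 := by
      rw [mul_sub, mul_one]
      have : x * s * (x * s) = x * s := by
        calc x * s * (x * s) = x * (s * x) * s := by simp only [mul_assoc]
          _ = x * s := by rw [h, mul_one]
      rw [this, sub_self]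
    have h3 : x * s = 0 := by
      obtain ⟨v, hv⟩ := h1.exists_right_inv
      calc x * s = (x * s) * ((1 - x * s) * v) := by rw [hv, mul_one]
        _ = ((x * s) * (1 - x * s)) * v := by rw [← mul_assoc (x * s)]
        _ = 0 := by rw [h2, zero_mul]
    have h4 : (1 : R) = 0 := by
      calc (1 : R) = (s * x) * (s * x) := by rw [h, one_mul]
        _ = s * (x * s) * x := by simp only [mul_assoc]
        _ = 0 := by rw [h3, mul_zero, zero_mul]
    exact one_ne_zero h4

/-- The Jacobson radical of a local ring is its set of nonunits. -/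
lemma mem_jacobson_iff {x : R} : x ∈ Ring.jacobson R ↔ ¬ IsUnit x := by
  constructor
  · intro hx hu
    have : Ring.jacobson R = ⊤ := Ideal.eq_top_of_isUnit_mem _ hx hu
    exact (Ring.jacobson_lt_top R).ne this
  · intro hx
    rw [Ring.jacobson_eq_sInf_isMaximal]
    refine (Submodule.mem_sInf).mpr ?_
    intro m hm
    by_contra hxm
    -- `m` together with `x` generates the unit ideal
    have hm' : Ideal.IsMaximal m := hm
    have hsup : m ⊔ Ideal.span {x} = ⊤ :=
      hm'.1.2 _ (lt_of_le_of_ne le_sup_left (fun h => hxm (by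
        rw [h]; exact Ideal.mem_sup_right (Ideal.mem_span_singleton_self x))))
    have h1 : (1 : R) ∈ m ⊔ Ideal.span {x} := by rw [hsup]; trivial
    obtain ⟨y, hy, z, hz, hyz⟩ := Submodule.mem_sup.mp h1
    obtain ⟨r, rfl⟩ := Ideal.mem_span_singleton'.mp hz
    rcases IsLocalRing.isUnit_or_isUnit_of_add_one hyz with h2 | h2
    · exact hm'.ne_top (Ideal.eq_top_of_isUnit_mem _ hy h2)
    · obtain ⟨v, hv⟩ := h2.exists_left_inv
      exact hx (isUnit_of_left_inv (s := v * r) (by rw [mul_assoc]; exact hv))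

lemma isUnit_of_not_mem_jacobson {x : R} (hx : x ∉ Ring.jacobson R) : IsUnit x := by
  by_contra h
  exact hx (mem_jacobson_iff.mpr h)

/-- A nonzero element killing the radical from the right, for a nilpotent radical. -/
lemma exists_left_annihilator (hnil : IsNilpotent (Ring.jacobson R)) :
    ∃ σ : R, σ ≠ 0 ∧ ∀ x ∈ Ring.jacobson R, σ * x = 0 := by
  classical
  obtain ⟨n, hn⟩ := hnil
  -- take the least power that vanishes
  have hex : ∃ k, (Ring.jacobson R) ^ k = 0 := ⟨n, hn⟩
  let k := Nat.find hex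
  have hk : (Ring.jacobson R) ^ k = 0 := Nat.find_spec hex
  have hk0 : k ≠ 0 := by
    intro h0
    rw [h0, Submodule.pow_zero] at hk
    have h1 : (1 : R) ∈ (1 : Ideal R) := by
      rw [Ideal.one_eq_top]; trivial
    rw [hk] at h1
    exact one_ne_zero ((Ideal.mem_bot).mp h1)
  obtain ⟨p, hp⟩ : ∃ p, k = p + 1 := ⟨k - 1, by omega⟩
  have hpne : (Ring.jacobson R) ^ p ≠ 0 := fun h => by
    have := Nat.find_min hex (m := p) (by simp only [k] at hp; omega)
    exact this h
  obtain ⟨σ, hσ, hne⟩ := Submodule.exists_mem_ne_zero_of_ne_bot hpne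
  refine ⟨σ, hne, fun x hx => ?_⟩
  have h2 : σ * x ∈ (Ring.jacobson R) ^ (p + 1) := by
    rw [Submodule.pow_succ]
    exact Ideal.mul_mem_mul hσ hx
  rw [← hp, hk] at h2
  exact (Ideal.mem_bot).mp h2

/-- Existence of a minimal generating family: any relation has coefficients in the radical. -/
theorem exists_min_gen (X : Type*) [AddCommGroup X] [Module R X] [Module.Finite R X] :
    ∃ (n : ℕ) (g : Fin n → X), Submodule.span R (Set.range g) = ⊤ ∧
      ∀ r : Fin n → R, ∑ j, r j • g j = 0 → ∀ j, r j ∈ Ring.jacobson R := by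
  classical
  have hex : ∃ n, ∃ g : Fin n → X, Submodule.span R (Set.range g) = ⊤ :=
    Module.Finite.exists_fin
  let n := Nat.find hex
  obtain ⟨g, hg⟩ : ∃ g : Fin n → X, Submodule.span R (Set.range g) = ⊤ := Nat.find_spec hex
  refine ⟨n, g, hg, ?_⟩
  intro r hr j₀
  by_contra hj
  obtain ⟨u, hu⟩ := isUnit_of_not_mem_jacobson hj
  -- `n` is positive since `j₀` exists, so drop `j₀`
  obtain ⟨m, hm⟩ : ∃ m, n = m + 1 := ⟨n - 1, by have := j₀.2; omega⟩
  have hmin : ¬ ∃ g : Fin m → X, Submodule.span R (Set.range g) = ⊤ :=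
    Nat.find_min hex (m := m) (by simp only [n] at hm; omega)
  apply hmin
  clear_value n
  subst hm
  refine ⟨g ∘ j₀.succAbove, ?_⟩
  have hsub : ∀ j, g j ∈ Submodule.span R (Set.range (g ∘ j₀.succAbove)) := by
    have hj0 : g j₀ ∈ Submodule.span R (Set.range (g ∘ j₀.succAbove)) := by
      rw [Fin.sum_univ_succAbove _ j₀] at hr
      have h1 : r j₀ • g j₀ = - ∑ i, r (j₀.succAbove i) • g (j₀.succAbove i) :=
        eq_neg_of_add_eq_zero_left hr
      have h2 : g j₀ = ((u⁻¹ : Rˣ) : R) • (r j₀ • g j₀) := by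
        rw [← hu, smul_smul]; simp
      rw [h2, h1]
      refine Submodule.smul_mem _ _ (Submodule.neg_mem _ (Submodule.sum_mem _ fun i _ => ?_))
      exact Submodule.smul_mem _ _ (Submodule.subset_span ⟨i, rfl⟩)
    intro j
    by_cases hjj : j = j₀
    · rw [hjj]; exact hj0
    · obtain ⟨z, rfl⟩ := Fin.exists_succAbove_eq hjj
      exact Submodule.subset_span ⟨z, rfl⟩
  apply top_le_iff.mp
  rw [← hg]
  exact Submodule.span_le.mpr (by rintro _ ⟨j, rfl⟩; exact hsub j)

end Local

end Vale.Agent.P195
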