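import Mathlib

namespace Vale.Agent.P195

/-- A sequence of positive integers with constant ratio `c / b` forces `b ∣ c`. -/
lemma dvd_of_ratio_seq (x : ℕ → ℕ) (b c : ℕ) (hx : ∀ i, 1 ≤ x i) (hb : 1 ≤ b)
    (h : ∀ i, x i * c = x (i + 1) * b) : b ∣ c := by
  set g := Nat.gcd b c with hg
  have hgpos : 0 < g := Nat.gcd_pos_of_pos_left _ hb
  obtain ⟨b', hb'⟩ : g ∣ b := Nat.gcd_dvd_left _ _
  obtain ⟨c', hc'⟩ : g ∣ c := Nat.gcd_dvd_right _ _
  have hcop : Nat.Coprime b' c' := by
    have := Nat.coprime_div_gcd_div_gcd (m := b) (n := c) hgpos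
    rw [← hg] at this
    rwa [hb', hc', Nat.mul_div_cancel_left _ hgpos, Nat.mul_div_cancel_left _ hgpos] at this
  have h' : ∀ i, x i * c' = x (i + 1) * b' := by
    intro i
    have := h i
    rw [hb', hc'] at this
    have h2 : g * (x i * c') = g * (x (i + 1) * b') := by
      calc g * (x i * c') = x i * (g * c') := by ring
        _ = x (i + 1) * (g * b') := this
        _ = g * (x (i + 1) * b') := by ring
    exact Nat.eq_of_mul_eq_mul_left hgpos h2
  have hpow : ∀ n i, b' ^ n ∣ x i := by
    intro n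
    induction n with
    | zero => intro i; simp
    | succ n ih =>
      intro i
      have h1 : b' ^ (n + 1) ∣ x i * c' := by
        rw [h' i, pow_succ]
        exact Nat.mul_dvd_mul (ih (i + 1)) dvd_rfl
      exact (Nat.Coprime.pow_left (n + 1) hcop).dvd_of_dvd_mul_right h1
  have hb1 : b' = 1 := by
    by_contra hne
    have hb0 : b' ≠ 0 := by
      rintro rfl
      simp at hb'
      omega
    have h2 : 2 ≤ b' := by omega
    have h3 := Nat.le_of_dvd (hx 0) (hpow (x 0) 0)
    have h4 : x 0 < 2 ^ (x 0) := Nat.lt_two_pow_self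
    have h5 : 2 ^ (x 0) ≤ b' ^ (x 0) := Nat.pow_le_pow_left h2 _
    omega
  rw [hb', hb1, mul_one, hc']
  exact dvd_mul_right _ _

/-- The numerical heart of the argument, first part. -/
lemma numeric_main (t d b e j k n1 s m : ℕ) (β : ℕ → ℕ)
    (hd : 1 ≤ d) (ht : 1 ≤ t) (hβ : ∀ i, 1 ≤ β (i + 1))
    (h1 : t * (j + d) + b = t * j + m)
    (h2 : ∀ i, β (i + 1) * m = β (i + 1) * b + β (i + 2) * b)
    (h3 : t * b + β 1 * b < t * m)
    (h4 : t * (j + d) = n1 + m)
    (h5 : β 1 * (j + d) + t * k = β 1 * j + n1)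
    (h6 : β 2 * (j + d) + β 1 * k = β 2 * j + s)
    (h6' : s ≤ β 1 * j)
    (h7 : e * (j + d) + k = e * j + j) :
    1 ≤ b ∧ ∃ q, 1 ≤ q ∧ e = q ∧ s = β 1 * j ∧ j = q * d + k ∧ β 1 * q + t = t * q * q := by
  have hm : m = t * d + b := by linarith
  subst hm
  have hR : ∀ i, β (i + 1) * (t * d) = β (i + 2) * b := by
    intro i
    have := h2 i
    linarith
  have hb1 : 1 ≤ b := by
    by_contra hb0
    have hb0' : b = 0 := by omega
    subst hb0'
    have h0 := hR 0
    have hb := hβ 0
    have hpos : 0 < β (0 + 1) * (t * d) := by positivity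
    rw [h0] at hpos
    simp at hpos
  refine ⟨hb1, ?_⟩
  -- integrality
  have hdvd : b ∣ t * d := dvd_of_ratio_seq (fun i => β (i + 1)) b (t * d) (fun i => hβ i) hb1
    (fun i => hR i)
  obtain ⟨q, hq⟩ := hdvd
  have hqpos : 1 ≤ q := by
    by_contra h0
    have h00 : q = 0 := by omega
    subst h00
    have hpos : 0 < t * d := by positivity
    rw [hq] at hpos
    simp at hpos
  have hj : j = e * d + k := by linarith
  subst hj
  have hβ1 : 1 ≤ β 1 := hβ 0
  have hβ2q : β 2 = β 1 * q := by
    have h0 := hR 0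
    simp only [zero_add] at h0
    rw [hq] at h0
    have h8 : b * (β 2) = b * (β 1 * q) := by linarith
    exact Nat.eq_of_mul_eq_mul_left hb1 h8
  -- `(3)`
  have h3' : t * e * d = β 1 * d + b := by linarith
  -- `(2)`
  have h2' : β 1 * b < t * (t * d) := by linarith
  have h2'' : β 1 < t * q := by
    rw [hq] at h2'
    have : b * β 1 < b * (t * q) := by linarith
    exact Nat.lt_of_mul_lt_mul_left this
  -- `(3')`
  have h3'' : β 1 * q + t = t * e * q := by
    have h9 : d * (β 1 * q + t) = d * (t * e * q) := by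
      calc d * (β 1 * q + t) = β 1 * d * q + t * d := by ring
        _ = β 1 * d * q + b * q := by rw [hq]
        _ = (β 1 * d + b) * q := by ring
        _ = (t * e * d) * q := by rw [h3']
        _ = d * (t * e * q) := by ring
    exact Nat.eq_of_mul_eq_mul_left hd h9
  -- `(4)`
  have h10 : β 2 * d + β 1 * k = s := by linarith
  have h4' : q ≤ e := by
    have h11 : β 2 * d ≤ β 1 * (e * d) := by linarith
    rw [hβ2q] at h11
    have h12 : (β 1 * d) * q ≤ (β 1 * d) * e := by linarith
    exact Nat.le_of_mul_le_mul_left h12 (by positivity)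
  have he : e = q := by
    by_contra hne
    have h13 : q + 1 ≤ e := by omega
    have h14 : t * (q + 1) * q ≤ t * e * q := by gcongr
    have h15 : t * q * q + t * q ≤ t * e * q := by linarith
    have h16 : t ≤ t * q := Nat.le_mul_of_pos_right _ hqpos
    have h17 : β 1 * q < t * q * q := by
      have := Nat.mul_lt_mul_of_pos_right h2'' (show 0 < q from hqpos)
      linarith
    have h18 : t * e * q ≤ t * q * q + t := by omega
    omega
  subst he
  refine ⟨e, hqpos, rfl, ?_, rfl, h3''⟩
  rw [hβ2q] at h10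
  linarith

/-- Second part of the numerical argument. -/
lemma numeric_final (t d e j β1 : ℕ) (hd : 1 ≤ d) (ht : 1 ≤ t) (hβ : 1 ≤ β1)
    (hq : 1 ≤ e) (hj : j = e * d) (h : β1 * e + t = t * e * e) (h2 : β1 * j ≤ t * d) : False := by
  subst hj
  have h3 : β1 * e ≤ t := by
    have : d * (β1 * e) ≤ d * t := by linarith
    exact Nat.le_of_mul_le_mul_left this hd
  have h4 : t * (e * e) ≤ t * 2 := by linarith
  have h5 : e * e ≤ 2 := Nat.le_of_mul_le_mul_left h4 ht
  have h6 : e = 1 := by nlinarith
  subst h6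
  omega

end Vale.Agent.P195
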