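import Mathlib
import Vale.Agent.P195.Length
import Vale.Agent.P195.LocalFacts
import Vale.Agent.P195.Numeric

set_option linter.unusedSectionVars false
set_option linter.unusedSimpArgs false

namespace Vale.Agent.P195

universe u

open Finset

/-- The elementary form of a minimal free resolution of `M`. -/
structure Res (R : Type u) [Ring R] (M : Type u) [AddCommGroup M] [Module R M] where
  β : ℕ → ℕ
  a : ∀ i, Fin (β (i + 1)) → Fin (β i) → R
  g : Fin (β 0) → M
  gen : Submodule.span R (Set.range g) = ⊤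
  ex0 : ∀ r : Fin (β 0) → R, ∑ j, r j • g j = 0 ↔
    ∃ s : Fin (β 1) → R, ∀ j, r j = ∑ l, s l * a 0 l j
  ex : ∀ i (r : Fin (β (i + 1)) → R), (∀ j, ∑ l, r l * a i l j = 0) ↔
    ∃ s : Fin (β (i + 2)) → R, ∀ l, r l = ∑ m, s m * a (i + 1) m l
  aJ : ∀ i l j, a i l j ∈ Ring.jacobson R

/-- Exactness of the complex obtained by applying `Hom(-, Y)` to the resolution. -/
def Res.Van {R : Type u} [Ring R] {M : Type u} [AddCommGroup M] [Module R M] (D : Res R M)
    (Y : Type*) [AddCommGroup Y] [Module R Y] : Prop :=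
  ∀ i (w : Fin (D.β (i + 1)) → Y), (∀ m, ∑ l, D.a (i + 1) m l • w l = 0) →
    ∃ u : Fin (D.β i) → Y, ∀ l, w l = ∑ j, D.a i l j • u j

section Maps

variable (C : Type*) [CommRing C] {R : Type u} [Ring R] [Algebra C R]

/-- The column action. -/
def phi {Y : Type*} [AddCommGroup Y] [Module R Y] [Module C Y] [IsScalarTower C R Y] {n n' : ℕ}
    (a : Fin n' → Fin n → R) : (Fin n → Y) →ₗ[C] (Fin n' → Y) where
  toFun u := fun l => ∑ j, a l j • u j
  map_add' u v := by
    ext l; simp [smul_add, Finset.sum_add_distrib]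
  map_smul' c u := by
    ext l
    simp only [Pi.smul_apply, RingHom.id_apply, Finset.smul_sum]
    exact Finset.sum_congr rfl fun j _ => smul_comm _ _ _

@[simp] lemma phi_apply {Y : Type*} [AddCommGroup Y] [Module R Y] [Module C Y]
    [IsScalarTower C R Y] {n n' : ℕ} (a : Fin n' → Fin n → R) (u : Fin n → Y) (l : Fin n') :
    phi C a u l = ∑ j, a l j • u j := rfl

/-- The row action. -/
def rowMap {n n' : ℕ} (a : Fin n' → Fin n → R) : (Fin n' → R) →ₗ[C] (Fin n → R) where
  toFun s := fun j => ∑ l, s l * a l j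
  map_add' u v := by
    ext l; simp [add_mul, Finset.sum_add_distrib]
  map_smul' c u := by
    ext l; simp [Finset.smul_sum, Algebra.smul_mul_assoc]

@[simp] lemma rowMap_apply {n n' : ℕ} (a : Fin n' → Fin n → R) (s : Fin n' → R) (j : Fin n) :
    rowMap C a s j = ∑ l, s l * a l j := rfl

/-- Evaluation on a family. -/
def evalMap {Y : Type*} [AddCommGroup Y] [Module R Y] [Module C Y] [IsScalarTower C R Y]
    {n : ℕ} (g : Fin n → Y) : (Fin n → R) →ₗ[C] Y where
  toFun r := ∑ j, r j • g j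
  map_add' u v := by
    simp [add_smul, Finset.sum_add_distrib]
  map_smul' c u := by
    simp [Finset.smul_sum, smul_assoc]

@[simp] lemma evalMap_apply {Y : Type*} [AddCommGroup Y] [Module R Y] [Module C Y]
    [IsScalarTower C R Y] {n : ℕ} (g : Fin n → Y) (r : Fin n → R) :
    evalMap C g r = ∑ j, r j • g j := rfl

variable (R) in
/-- The radical as a module over the base. -/
abbrev JC : Submodule C R := (Ring.jacobson R).restrictScalars C

variable (R) in
/-- The square of the radical as a module over the base. -/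
abbrev KC : Submodule C R := (Ring.jacobson R * Ring.jacobson R).restrictScalars C

end Maps

section Core

variable {R : Type u} [Ring R]

lemma mul_mem_K {a b : R} (ha : a ∈ Ring.jacobson R) (hb : b ∈ Ring.jacobson R) :
    a * b ∈ Ring.jacobson R * Ring.jacobson R := Ideal.mul_mem_mul ha hb

lemma mem_J_of_mem_K {x : R} (hx : x ∈ Ring.jacobson R * Ring.jacobson R) :
    x ∈ Ring.jacobson R := Ideal.mul_le_right hx

/-- A product of a radical element and an element of the square lies in the cube form used in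
Nakayama's lemma. -/
lemma mem_mul_K_of_K_mul {z a : R} (hz : z ∈ Ring.jacobson R * Ring.jacobson R)
    (ha : a ∈ Ring.jacobson R) :
    z * a ∈ Ring.jacobson R * (Ring.jacobson R * Ring.jacobson R) := by
  refine Submodule.mul_induction_on hz (fun u hu v hv => ?_) (fun x y hx hy => ?_)
  · rw [mul_assoc]
    exact Ideal.mul_mem_mul hu (Ideal.mul_mem_mul hv ha)
  · rw [add_mul]
    exact add_mem hx hy

variable {M : Type u} [AddCommGroup M] [Module R M]

lemma K_smul_eq_zero (hM : ∀ a ∈ Ring.jacobson R, ∀ b ∈ Ring.jacobson R, ∀ x : M, a • b • x = 0)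
    {c : R} (hc : c ∈ Ring.jacobson R * Ring.jacobson R) (x : M) : c • x = 0 := by
  refine Submodule.mul_induction_on hc (fun u hu v hv => ?_) (fun y z hy hz => ?_)
  · rw [mul_smul]; exact hM u hu v hv x
  · rw [add_smul, hy, hz, add_zero]

end Core

section Main

variable (C : Type*) [CommRing C]
  {R : Type u} [Ring R] [IsLocalRing R] [Algebra C R]
  {M : Type u} [AddCommGroup M] [Module R M] [Module C M] [IsScalarTower C R M]
  (D : Res R M)

lemma one_not_mem_J : (1 : R) ∉ Ring.jacobson R := by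
  rw [mem_jacobson_iff]; simp

/-- The radical of `M`, as a module over the base. -/
def Res.V : Submodule C M := (piS (D.β 0) (JC C R)).map (evalMap C D.g)

variable {C} in
lemma Res.mem_V {v : M} : v ∈ D.V C ↔ ∃ r : Fin (D.β 0) → R,
    (∀ j, r j ∈ Ring.jacobson R) ∧ ∑ j, r j • D.g j = v := by
  simp [Res.V, Submodule.mem_map]

lemma Res.exists_coeff (y : M) : ∃ c : Fin (D.β 0) → R, ∑ j, c j • D.g j = y := by
  have hy : y ∈ Submodule.span R (Set.range D.g) := by rw [D.gen]; trivial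
  exact (Submodule.mem_span_range_iff_exists_fun R).mp hy

lemma Res.smul_mem_V {a : R} (ha : a ∈ Ring.jacobson R) (y : M) : a • y ∈ D.V C := by
  obtain ⟨c, rfl⟩ := D.exists_coeff y
  refine D.mem_V.mpr ⟨fun j => a * c j, fun j => ?_, ?_⟩
  · exact Ideal.mul_mem_right _ _ ha
  · simp [Finset.smul_sum, mul_smul]

lemma Res.smul_V_eq_zero
    (hM : ∀ a ∈ Ring.jacobson R, ∀ b ∈ Ring.jacobson R, ∀ x : M, a • b • x = 0)
    {b : R} (hb : b ∈ Ring.jacobson R) {v : M} (hv : v ∈ D.V C) : b • v = 0 := by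
  obtain ⟨r, hr, rfl⟩ := D.mem_V.mp hv
  rw [Finset.smul_sum]
  exact Finset.sum_eq_zero fun j _ => hM b hb (r j) (hr j) _

lemma Res.g_not_mem_V (j₀ : Fin (D.β 0)) : D.g j₀ ∉ D.V C := by
  classical
  intro h
  obtain ⟨r, hr, hrg⟩ := D.mem_V.mp h
  let r' : Fin (D.β 0) → R := Pi.single j₀ 1 - r
  have h0 : ∑ j, r' j • D.g j = 0 := by
    simp only [r', Pi.sub_apply, sub_smul, Finset.sum_sub_distrib, hrg]
    simp [Pi.single_apply, ite_smul]
  obtain ⟨s, hs⟩ := (D.ex0 _).mp h0
  have h1 : r' j₀ ∈ Ring.jacobson R := by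
    rw [hs j₀]
    exact Submodule.sum_mem _ fun l _ => Ideal.mul_mem_left _ _ (D.aJ 0 l j₀)
  simp only [r', Pi.sub_apply, Pi.single_eq_same] at h1
  apply one_not_mem_J (R := R)
  have := add_mem h1 (hr j₀)
  simpa using this

lemma Res.row_zero_eval (l : Fin (D.β 1)) : ∑ j, D.a 0 l j • D.g j = 0 := by
  classical
  refine (D.ex0 _).mpr ⟨Pi.single l 1, fun j => ?_⟩
  simp [Pi.single_apply, ite_mul]

/-- Image of the column action. -/
lemma Res.map_phi (hM : ∀ a ∈ Ring.jacobson R, ∀ b ∈ Ring.jacobson R, ∀ x : M, a • b • x = 0)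
    (hVan : D.Van M) (i : ℕ) :
    (⊤ : Submodule C (Fin (D.β i) → M)).map (phi C (D.a i)) = piS (D.β (i + 1)) (D.V C) := by
  apply le_antisymm
  · rintro _ ⟨u, -, rfl⟩
    refine mem_piS.mpr fun l => ?_
    rw [phi_apply]
    exact Submodule.sum_mem _ fun j _ => D.smul_mem_V C (D.aJ i l j) _
  · intro w hw
    have h0 : ∀ m, ∑ l, D.a (i + 1) m l • w l = 0 := fun m =>
      Finset.sum_eq_zero fun l _ => D.smul_V_eq_zero C hM (D.aJ _ _ _) (mem_piS.mp hw l)
    obtain ⟨u, hu⟩ := hVan i w h0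
    exact ⟨u, trivial, funext fun l => (hu l).symm⟩

/-- Kernel of the column action in positive degree. -/
lemma Res.ker_phi (hM : ∀ a ∈ Ring.jacobson R, ∀ b ∈ Ring.jacobson R, ∀ x : M, a • b • x = 0)
    (hVan : D.Van M) (i : ℕ) :
    LinearMap.ker (phi C (D.a (i + 1)) : (Fin (D.β (i + 1)) → M) →ₗ[C] (Fin (D.β (i + 2)) → M)) =
      piS (D.β (i + 1)) (D.V C) := by
  apply le_antisymm
  · intro w hw
    have h0 : ∀ m, ∑ l, D.a (i + 1) m l • w l = 0 := fun m =>
      congrFun (LinearMap.mem_ker.mp hw) m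
    obtain ⟨u, hu⟩ := hVan i w h0
    refine mem_piS.mpr fun l => ?_
    rw [hu l]
    exact Submodule.sum_mem _ fun j _ => D.smul_mem_V C (D.aJ i l j) _
  · intro w hw
    refine LinearMap.mem_ker.mpr (funext fun m => ?_)
    rw [phi_apply]
    exact Finset.sum_eq_zero fun l _ => D.smul_V_eq_zero C hM (D.aJ _ _ _) (mem_piS.mp hw l)

/-- Independence of the rows modulo the square of the radical. -/
lemma Res.row_indep (hM : ∀ a ∈ Ring.jacobson R, ∀ b ∈ Ring.jacobson R, ∀ x : M, a • b • x = 0)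
    (hVan : D.Van M) (hV : D.V C ≠ ⊥) (i : ℕ) (s : Fin (D.β (i + 1)) → R)
    (hs : ∀ j, ∑ l, s l * D.a i l j ∈ Ring.jacobson R * Ring.jacobson R) (l₀ : Fin (D.β (i + 1))) :
    s l₀ ∈ Ring.jacobson R := by
  classical
  by_contra hl
  obtain ⟨w, hw⟩ := isUnit_of_not_mem_jacobson hl
  obtain ⟨v, hv, hne⟩ := Submodule.exists_mem_ne_zero_of_ne_bot hV
  have hmem : (Pi.single l₀ v : Fin (D.β (i + 1)) → M) ∈ piS (D.β (i + 1)) (D.V C) := by
    refine mem_piS.mpr fun l => ?_
    by_cases h : l = l₀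
    · subst h; simpa using hv
    · simp [Pi.single_apply, h]
  rw [← D.map_phi C hM hVan i] at hmem
  obtain ⟨u, -, hu⟩ := hmem
  have h1 : ∑ l, s l • (phi C (D.a i) u l) = s l₀ • v := by
    rw [hu]
    rw [Finset.sum_eq_single l₀]
    · simp
    · intro b _ hb; simp [Pi.single_apply, hb]
    · simp
  have h2 : ∑ l, s l • (phi C (D.a i) u l) = ∑ j, (∑ l, s l * D.a i l j) • u j := by
    simp only [phi_apply, Finset.smul_sum, Finset.sum_smul, mul_smul]
    rw [Finset.sum_comm]
  have h3 : ∑ j, (∑ l, s l * D.a i l j) • u j = 0 :=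
    Finset.sum_eq_zero fun j _ => K_smul_eq_zero hM (hs j) _
  rw [h2, h3] at h1
  apply hne
  have h4 : v = ((w⁻¹ : Rˣ) : R) • (s l₀ • v) := by
    rw [← hw, smul_smul]; simp
  rw [h4, ← h1, smul_zero]

/-- Kernel of the row action lies in the radical. -/
lemma Res.ker_rowMap_le (i : ℕ) :
    (⊤ : Submodule C (Fin (D.β (i + 1)) → R)) ⊓ LinearMap.ker (rowMap C (D.a i)) ≤
      piS (D.β (i + 1)) (JC C R) := by
  rintro s ⟨-, hs⟩
  have h0 : ∀ j, ∑ l, s l * D.a i l j = 0 := fun j => congrFun (LinearMap.mem_ker.mp hs) j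
  obtain ⟨s', hs'⟩ := (D.ex i s).mp h0
  refine mem_piS.mpr fun l => ?_
  rw [hs' l]
  exact Submodule.sum_mem _ fun m _ => Ideal.mul_mem_left _ _ (D.aJ _ _ _)

lemma Res.rowMap_J_le (i : ℕ) :
    (piS (D.β (i + 1)) (JC C R)).map (rowMap C (D.a i)) ≤ piS (D.β i) (KC C R) := by
  rintro _ ⟨s, hs, rfl⟩
  refine mem_piS.mpr fun j => ?_
  rw [rowMap_apply]
  exact Submodule.sum_mem _ fun l _ => mul_mem_K (mem_piS.mp hs l) (D.aJ _ _ _)

/-- Composition of consecutive row actions vanishes. -/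
lemma Res.rowMap_comp (i : ℕ) (s : Fin (D.β (i + 2)) → R) :
    rowMap C (D.a i) (rowMap C (D.a (i + 1)) s) = 0 := by
  funext j
  exact (D.ex i (rowMap C (D.a (i + 1)) s)).mpr ⟨s, fun l => rfl⟩ j

end Main

end Vale.Agent.P195
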