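import Mathlib
import Vale.Agent.P195.Core

set_option linter.unusedSectionVars false
set_option linter.unusedSimpArgs false

namespace Vale.Agent.P195

universe u

open Finset

section Counting

variable (C : Type*) [CommRing C] [IsArtinianRing C]
  {R : Type u} [Ring R] [IsLocalRing R] [Algebra C R] [Module.Finite C R]

include C in
lemma isNoetherianRing_of_finite : IsNoetherian R R :=
  isNoetherian_of_tower C (inferInstance : IsNoetherian C R)

lemma gen_J_count_aux {e : ℕ} (g' : Fin e → R)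
    (hmem : ∀ j, g' j ∈ Ring.jacobson R)
    (hrel : ∀ r : Fin e → R, ∑ j, r j • g' j = 0 → ∀ j, r j ∈ Ring.jacobson R)
    (hcoef : ∀ y ∈ Ring.jacobson R, ∃ c : Fin e → R, ∑ j, c j • g' j = y) :
    e * ell (⊤ : Submodule C R) + ell (KC C R) = e * ell (JC C R) + ell (JC C R) := by
  have hker : (⊤ : Submodule C (Fin e → R)) ⊓ LinearMap.ker (evalMap C g') ≤
      piS e (JC C R) := by
    rintro r ⟨-, hr⟩
    exact mem_piS.mpr fun j => hrel r (LinearMap.mem_ker.mp hr) j
  have hmap1 : (⊤ : Submodule C (Fin e → R)).map (evalMap C g') = JC C R := by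
    apply le_antisymm
    · rintro _ ⟨r, -, rfl⟩
      rw [evalMap_apply]
      exact Submodule.sum_mem _ fun j _ => Ideal.mul_mem_left _ _ (hmem j)
    · intro y hy
      obtain ⟨c, hc⟩ := hcoef y hy
      exact ⟨c, trivial, hc⟩
  have hmap2 : (piS e (JC C R)).map (evalMap C g') = KC C R := by
    apply le_antisymm
    · rintro _ ⟨r, hr, rfl⟩
      rw [evalMap_apply]
      refine Submodule.sum_mem _ fun j _ => ?_
      have hrj : r j ∈ Ring.jacobson R := mem_piS.mp hr j
      rw [smul_eq_mul]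
      exact mul_mem_K hrj (hmem j)
    · intro y hy
      have hy' : y ∈ Ring.jacobson R * Ring.jacobson R := hy
      refine Submodule.mul_induction_on hy' (fun u hu v hv => ?_) (fun x y hx hy => add_mem hx hy)
      obtain ⟨c, hc⟩ := hcoef v hv
      refine ⟨fun j => u * c j, mem_piS.mpr fun j => Ideal.mul_mem_right _ _ hu, ?_⟩
      simp only [smul_eq_mul] at hc
      simp only [evalMap_apply, smul_eq_mul, mul_assoc]
      rw [← Finset.mul_sum, hc]
  have hid := ell_image_identity (X := Fin e → R) (Y := R) (evalMap C g')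
    (A := piS e (JC C R)) (B := ⊤) le_top hker
  rw [hmap1, hmap2, ell_piS] at hid
  have htop : ell (⊤ : Submodule C (Fin e → R)) = e * ell (⊤ : Submodule C R) := by
    rw [← piS_top, ell_piS]
  rw [htop] at hid
  exact hid

lemma exists_gen_J_count :
    ∃ e : ℕ, e * ell (⊤ : Submodule C R) + ell (KC C R) = e * ell (JC C R) + ell (JC C R) := by
  have : IsNoetherian R R := isNoetherianRing_of_finite C
  have hfin : Module.Finite R (Ring.jacobson R) := Module.Finite.of_fg (IsNoetherian.noetherian _)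
  obtain ⟨e, g, hg, hrel⟩ := exists_min_gen (R := R) (Ring.jacobson R)
  refine ⟨e, gen_J_count_aux C (fun l => (g l : R)) (fun j => (g j).2) ?_ ?_⟩
  · intro r hr
    refine hrel r (Subtype.ext ?_)
    simp only [AddSubmonoidClass.coe_finsetSum, Submodule.coe_smul_of_tower]
    exact hr
  · intro y hy
    have hy' : (⟨y, hy⟩ : Ring.jacobson R) ∈ Submodule.span R (Set.range g) := by
      rw [hg]; trivial
    obtain ⟨c, hc⟩ := (Submodule.mem_span_range_iff_exists_fun R).mp hy'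
    refine ⟨c, ?_⟩
    have h2 := congrArg Subtype.val hc
    simp only [AddSubmonoidClass.coe_finsetSum, Submodule.coe_smul_of_tower] at h2
    exact h2

variable {M : Type u} [AddCommGroup M] [Module R M] [Module C M] [IsScalarTower C R M]
  [Module.Finite C M] (D : Res R M)

lemma ell_top_pi {X : Type*} [AddCommGroup X] [Module C X] [Module.Finite C X] (n : ℕ) :
    ell (⊤ : Submodule C (Fin n → X)) = n * ell (⊤ : Submodule C X) := by
  rw [← piS_top, ell_piS]

/-- `(L1)`: colength of the radical part. -/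
lemma Res.count1 : D.β 0 * ell (⊤ : Submodule C R) + ell (D.V C) =
    D.β 0 * ell (JC C R) + ell (⊤ : Submodule C M) := by
  have hker : (⊤ : Submodule C (Fin (D.β 0) → R)) ⊓ LinearMap.ker (evalMap C D.g) ≤
      piS (D.β 0) (JC C R) := by
    rintro r ⟨-, hr⟩
    obtain ⟨s, hs⟩ := (D.ex0 r).mp (LinearMap.mem_ker.mp hr)
    refine mem_piS.mpr fun j => ?_
    rw [hs j]
    exact Submodule.sum_mem _ fun l _ => Ideal.mul_mem_left _ _ (D.aJ 0 l j)
  have hid := ell_image_identity (X := Fin (D.β 0) → R) (Y := M) (evalMap C D.g)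
    (A := piS (D.β 0) (JC C R)) (B := ⊤) le_top hker
  have hmap : (⊤ : Submodule C (Fin (D.β 0) → R)).map (evalMap C D.g) = ⊤ := by
    rw [eq_top_iff]
    intro y _
    obtain ⟨c, hc⟩ := D.exists_coeff y
    exact ⟨c, trivial, hc⟩
  rw [hmap, ell_piS, ell_top_pi] at hid
  exact hid

/-- `(L2)`: the count in positive degree. -/
lemma Res.count2 (hM : ∀ a ∈ Ring.jacobson R, ∀ b ∈ Ring.jacobson R, ∀ x : M, a • b • x = 0)
    (hVan : D.Van M) (i : ℕ) :
    D.β (i + 1) * ell (⊤ : Submodule C M) =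
      D.β (i + 1) * ell (D.V C) + D.β (i + 2) * ell (D.V C) := by
  have h := ell_eq_add (X := Fin (D.β (i + 1)) → M) (Y := Fin (D.β (i + 2)) → M)
    (phi C (D.a (i + 1))) ⊤
  rw [top_inf_eq, D.ker_phi C hM hVan i, D.map_phi C hM hVan (i + 1), ell_piS, ell_piS,
    ell_top_pi] at h
  exact h

/-- `(L2')`: the strict inequality in degree zero. -/
lemma Res.count2' (hM : ∀ a ∈ Ring.jacobson R, ∀ b ∈ Ring.jacobson R, ∀ x : M, a • b • x = 0)
    (hVan : D.Van M) (ht : 1 ≤ D.β 0) :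
    D.β 0 * ell (D.V C) + D.β 1 * ell (D.V C) < D.β 0 * ell (⊤ : Submodule C M) := by
  have h := ell_eq_add (X := Fin (D.β 0) → M) (Y := Fin (D.β 1) → M) (phi C (D.a 0)) ⊤
  rw [top_inf_eq, D.map_phi C hM hVan 0, ell_piS, ell_top_pi] at h
  have hlt : piS (D.β 0) (D.V C) < LinearMap.ker (phi C (D.a 0) :
      (Fin (D.β 0) → M) →ₗ[C] (Fin (D.β 1) → M)) := by
    refine lt_of_le_of_ne ?_ ?_
    · intro w hw
      refine LinearMap.mem_ker.mpr (funext fun m => ?_)
      rw [phi_apply]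
      exact Finset.sum_eq_zero fun l _ => D.smul_V_eq_zero C hM (D.aJ _ _ _) (mem_piS.mp hw l)
    · intro heq
      have hg : D.g ∈ LinearMap.ker (phi C (D.a 0) :
          (Fin (D.β 0) → M) →ₗ[C] (Fin (D.β 1) → M)) :=
        LinearMap.mem_ker.mpr (funext fun l => D.row_zero_eval l)
      rw [← heq] at hg
      exact D.g_not_mem_V C ⟨0, ht⟩ (mem_piS.mp hg _)
  have h2 := ell_lt_of_lt hlt
  rw [ell_piS] at h2
  simp only [zero_add] at h
  omega

/-- The kernel of evaluation is the row space. -/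
lemma Res.ker_evalMap : LinearMap.ker (evalMap C D.g) =
    (⊤ : Submodule C (Fin (D.β 1) → R)).map (rowMap C (D.a 0)) := by
  ext r
  constructor
  · intro hr
    obtain ⟨s, hs⟩ := (D.ex0 r).mp (LinearMap.mem_ker.mp hr)
    exact ⟨s, trivial, funext fun j => (hs j).symm⟩
  · rintro ⟨s, -, rfl⟩
    exact LinearMap.mem_ker.mpr ((D.ex0 _).mpr ⟨s, fun j => rfl⟩)

lemma Res.count4 : D.β 0 * ell (⊤ : Submodule C R) =
    ell ((⊤ : Submodule C (Fin (D.β 1) → R)).map (rowMap C (D.a 0))) +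
      ell (⊤ : Submodule C M) := by
  have h := ell_eq_add (X := Fin (D.β 0) → R) (Y := M) (evalMap C D.g) ⊤
  have hmap : (⊤ : Submodule C (Fin (D.β 0) → R)).map (evalMap C D.g) = ⊤ := by
    rw [eq_top_iff]
    intro y _
    obtain ⟨c, hc⟩ := D.exists_coeff y
    exact ⟨c, trivial, hc⟩
  rw [top_inf_eq, hmap, D.ker_evalMap C, ell_top_pi] at h
  exact h

/-- The image of the radical part of the first row space. -/
lemma Res.map_rowMap_zero
    (hM : ∀ a ∈ Ring.jacobson R, ∀ b ∈ Ring.jacobson R, ∀ x : M, a • b • x = 0)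
    (hVan : D.Van M) (hV : D.V C ≠ ⊥) :
    (piS (D.β 1) (JC C R)).map (rowMap C (D.a 0)) = piS (D.β 0) (KC C R) := by
  apply le_antisymm (D.rowMap_J_le C 0)
  intro x hx
  have hx0 : ∑ j, x j • D.g j = 0 :=
    Finset.sum_eq_zero fun j _ => K_smul_eq_zero hM (mem_piS.mp hx j) _
  obtain ⟨s, hs⟩ := (D.ex0 x).mp hx0
  refine ⟨s, mem_piS.mpr fun l => ?_, funext fun j => (hs j).symm⟩
  exact D.row_indep C hM hVan hV 0 s (fun j => by
    have := mem_piS.mp hx j
    rw [hs j] at this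
    exact this) l

lemma Res.count5 (hM : ∀ a ∈ Ring.jacobson R, ∀ b ∈ Ring.jacobson R, ∀ x : M, a • b • x = 0)
    (hVan : D.Van M) (hV : D.V C ≠ ⊥) :
    D.β 1 * ell (⊤ : Submodule C R) + D.β 0 * ell (KC C R) =
      D.β 1 * ell (JC C R) +
        ell ((⊤ : Submodule C (Fin (D.β 1) → R)).map (rowMap C (D.a 0))) := by
  have hid := ell_image_identity (X := Fin (D.β 1) → R) (Y := Fin (D.β 0) → R)
    (rowMap C (D.a 0)) (A := piS (D.β 1) (JC C R)) (B := ⊤) le_top (D.ker_rowMap_le C 0)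
  rw [D.map_rowMap_zero C hM hVan hV, ell_piS, ell_piS, ell_top_pi] at hid
  exact hid

/-- The image of the radical part of the later row spaces. -/
lemma Res.map_rowMap_succ
    (hM : ∀ a ∈ Ring.jacobson R, ∀ b ∈ Ring.jacobson R, ∀ x : M, a • b • x = 0)
    (hVan : D.Van M) (hV : D.V C ≠ ⊥) (i : ℕ) :
    (piS (D.β (i + 2)) (JC C R)).map (rowMap C (D.a (i + 1))) =
      (⊤ : Submodule C (Fin (D.β (i + 2)) → R)).map (rowMap C (D.a (i + 1))) ⊓
        piS (D.β (i + 1)) (KC C R) := by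
  apply le_antisymm
  · exact le_inf (Submodule.map_mono le_top) (D.rowMap_J_le C (i + 1))
  · rintro x ⟨⟨s, -, rfl⟩, hx⟩
    refine ⟨s, mem_piS.mpr fun l => ?_, rfl⟩
    exact D.row_indep C hM hVan hV (i + 1) s (fun j => mem_piS.mp hx j) l

lemma Res.count6 (hM : ∀ a ∈ Ring.jacobson R, ∀ b ∈ Ring.jacobson R, ∀ x : M, a • b • x = 0)
    (hVan : D.Van M) (hV : D.V C ≠ ⊥) (i : ℕ) :
    D.β (i + 2) * ell (⊤ : Submodule C R) + D.β (i + 1) * ell (KC C R) =
      D.β (i + 2) * ell (JC C R) +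
        ell ((⊤ : Submodule C (Fin (D.β (i + 2)) → R)).map (rowMap C (D.a (i + 1))) ⊔
          piS (D.β (i + 1)) (KC C R)) := by
  have hid := ell_image_identity (X := Fin (D.β (i + 2)) → R) (Y := Fin (D.β (i + 1)) → R)
    (rowMap C (D.a (i + 1))) (A := piS (D.β (i + 2)) (JC C R)) (B := ⊤) le_top
    (D.ker_rowMap_le C (i + 1))
  rw [D.map_rowMap_succ C hM hVan hV, ell_piS, ell_top_pi] at hid
  have hmod := ell_sup_add_inf (C := C) (X := Fin (D.β (i + 1)) → R)
    ((⊤ : Submodule C (Fin (D.β (i + 2)) → R)).map (rowMap C (D.a (i + 1))))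
    (piS (D.β (i + 1)) (KC C R))
  rw [ell_piS] at hmod
  omega

lemma Res.sup_le_J (i : ℕ) :
    (⊤ : Submodule C (Fin (D.β (i + 2)) → R)).map (rowMap C (D.a (i + 1))) ⊔
      piS (D.β (i + 1)) (KC C R) ≤ piS (D.β (i + 1)) (JC C R) := by
  apply sup_le
  · rintro _ ⟨s, -, rfl⟩
    refine mem_piS.mpr fun l => ?_
    rw [rowMap_apply]
    exact Submodule.sum_mem _ fun m _ => Ideal.mul_mem_left _ _ (D.aJ _ _ _)
  · intro v hv
    exact mem_piS.mpr fun l => mem_J_of_mem_K (mem_piS.mp hv l)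

/-- Nakayama step: equality forces the square of the radical to vanish. -/
lemma Res.K_zero (hM : ∀ a ∈ Ring.jacobson R, ∀ b ∈ Ring.jacobson R, ∀ x : M, a • b • x = 0)
    (hVan : D.Van M) (hV : D.V C ≠ ⊥) (ht : 1 ≤ D.β 0)
    (hsup : (⊤ : Submodule C (Fin (D.β 2) → R)).map (rowMap C (D.a 1)) ⊔
      piS (D.β 1) (KC C R) = piS (D.β 1) (JC C R)) :
    ∀ a ∈ Ring.jacobson R, ∀ b ∈ Ring.jacobson R, a * b = 0 := by
  classical
  have : IsNoetherian R R := isNoetherianRing_of_finite C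
  have hle : Ring.jacobson R * Ring.jacobson R ≤
      Ring.jacobson R • (Ring.jacobson R * Ring.jacobson R) := by
    intro x hx
    let j₀ : Fin (D.β 0) := ⟨0, ht⟩
    have hv : (Pi.single j₀ x : Fin (D.β 0) → R) ∈ piS (D.β 0) (KC C R) := by
      refine mem_piS.mpr fun j => ?_
      by_cases h : j = j₀
      · subst h
        rw [Pi.single_eq_same]
        exact hx
      · simp [h]
    rw [← D.map_rowMap_zero C hM hVan hV] at hv
    obtain ⟨s, hs, hsx⟩ := hv
    rw [← hsup] at hs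
    obtain ⟨y, hy, z, hz, hyz⟩ := Submodule.mem_sup.mp hs
    obtain ⟨s', -, rfl⟩ := hy
    have h0 : rowMap C (D.a 0) z = Pi.single j₀ x := by
      rw [← hsx, ← hyz, map_add, (D.rowMap_comp C 0 s')]
      exact (zero_add _).symm
    have h1 : x = ∑ l, z l * D.a 0 l j₀ := by
      have := congrFun h0 j₀
      simp only [Pi.single_eq_same] at this
      exact this.symm
    rw [h1]
    refine Submodule.sum_mem _ fun l _ => ?_
    have h2 := mem_mul_K_of_K_mul (mem_piS.mp hz l) (D.aJ 0 l j₀)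
    refine Submodule.mul_induction_on h2 (fun u hu v hv => ?_) (fun _ _ h3 h4 => add_mem h3 h4)
    exact Submodule.smul_mem_smul hu hv
  have hbot := Submodule.FG.eq_bot_of_le_jacobson_smul (IsNoetherian.noetherian _) hle
  intro a ha b hb
  have h3 : a * b ∈ Ring.jacobson R * Ring.jacobson R := mul_mem_K ha hb
  rw [hbot] at h3
  exact (Submodule.mem_bot R).mp h3

/-- The final count, using `Ext¹(M, R) = 0`. -/
lemma Res.count8 (hK : ∀ a ∈ Ring.jacobson R, ∀ b ∈ Ring.jacobson R, a * b = 0)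
    (hVanR : ∀ w : Fin (D.β (0 + 1)) → R, (∀ m, ∑ l, D.a (0 + 1) m l • w l = 0) →
      ∃ u : Fin (D.β 0) → R, ∀ l, w l = ∑ j, D.a 0 l j • u j) :
    D.β 0 * ell (JC C R) + D.β 1 * ell (JC C R) ≤ D.β 0 * ell (⊤ : Submodule C R) := by
  have h := ell_eq_add (X := Fin (D.β 0) → R) (Y := Fin (D.β 1) → R) (phi C (D.a 0)) ⊤
  rw [top_inf_eq, ell_top_pi] at h
  have h1 : piS (D.β 0) (JC C R) ≤ LinearMap.ker (phi C (D.a 0) :
      (Fin (D.β 0) → R) →ₗ[C] (Fin (D.β 1) → R)) := by
    intro u hu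
    refine LinearMap.mem_ker.mpr (funext fun l => ?_)
    rw [phi_apply]
    exact Finset.sum_eq_zero fun j _ => hK _ (D.aJ _ _ _) _ (mem_piS.mp hu j)
  have h2 : piS (D.β 1) (JC C R) ≤
      (⊤ : Submodule C (Fin (D.β 0) → R)).map (phi C (D.a 0)) := by
    intro w hw
    have h0 : ∀ m, ∑ l, D.a (0 + 1) m l • w l = 0 := fun m =>
      Finset.sum_eq_zero fun l _ => hK _ (D.aJ _ _ _) _ (mem_piS.mp hw l)
    obtain ⟨u, hu⟩ := hVanR w h0
    exact ⟨u, trivial, funext fun l => (hu l).symm⟩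
  have h3 := ell_mono h1
  have h4 := ell_mono h2
  rw [ell_piS] at h3 h4
  omega

end Counting

end Vale.Agent.P195
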