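import Mathlib

open CategoryTheory Abelian

universe u

namespace Vale.Agent.P195

variable {R : Type u} [Ring R]

/-- Vanishing of `Ext` in all positive degrees. -/
def ExtVan (X Y : ModuleCat.{u} R) : Prop := ∀ i : ℕ, 1 ≤ i → ∀ e : Ext X Y i, e = 0

section
variable {F X : Type u} [AddCommGroup F] [Module R F]
  [AddCommGroup X] [Module R X] (f : F →ₗ[R] X) (hf : Function.Surjective f)

include hf in
/-- Dimension shifting. -/
theorem ExtVan.syzygy [Module.Projective R F] {Y : ModuleCat.{u} R}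
    (h : ExtVan (ModuleCat.of R X) Y) :
    ExtVan (ModuleCat.of R (LinearMap.ker f)) Y := by
  intro i hi e
  obtain ⟨k, rfl⟩ : ∃ k, i = k + 1 := ⟨i - 1, by omega⟩
  have hS := LinearMap.shortExact_shortComplexKer hf
  obtain ⟨x₂, hx₂⟩ := Ext.contravariant_sequence_exact₁ hS Y e (n₁ := k + 1 + 1) (by omega)
    (h (k + 1 + 1) (by omega) _)
  have : Projective (ModuleCat.of R F) := ModuleCat.projective_of_categoryTheory_projective _
  have hx : x₂ = 0 := Ext.eq_zero_of_projective (P := ModuleCat.of R F) (n := k) x₂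
  rw [← hx₂, hx]
  simp

include hf in
/-- `Ext¹` vanishing gives extension of maps from the kernel. -/
theorem extend_of_ext_one {Y : ModuleCat.{u} R}
    (h : ∀ e : Ext (ModuleCat.of R X) Y 1, e = 0) (g : LinearMap.ker f →ₗ[R] Y) :
    ∃ φ : F →ₗ[R] Y, ∀ x : LinearMap.ker f, φ x = g x := by
  have hS := LinearMap.shortExact_shortComplexKer hf
  let x₁ : Ext (f.shortComplexKer).X₁ Y 0 := Ext.mk₀ (ModuleCat.ofHom g)
  obtain ⟨x₂, hx₂⟩ := Ext.contravariant_sequence_exact₁ hS Y x₁ (n₁ := 1) (by omega) (h _)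
  obtain ⟨φ, rfl⟩ := Ext.mk₀_bijective _ _ |>.2 x₂
  rw [Ext.mk₀_comp_mk₀] at hx₂
  have := (Ext.mk₀_bijective _ _).1 hx₂
  refine ⟨φ.hom, fun x => ?_⟩
  have h2 := congrArg (fun ψ => ψ.hom x) this
  simpa using h2

end

/-- Finite free targets. -/
theorem ExtVan.pi_target {Z : ModuleCat.{u} R} (h : ExtVan Z (ModuleCat.of R R)) (n : ℕ) :
    ExtVan Z (ModuleCat.of R (Fin n → R)) := by
  intro i hi e
  let p : Fin n → (ModuleCat.of R (Fin n → R) ⟶ ModuleCat.of R R) :=
    fun j => ModuleCat.ofHom (LinearMap.proj j)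
  let s : Fin n → (ModuleCat.of R R ⟶ ModuleCat.of R (Fin n → R)) :=
    fun j => ModuleCat.ofHom (LinearMap.single R (fun _ => R) j)
  have hid : 𝟙 (ModuleCat.of R (Fin n → R)) = ∑ j, p j ≫ s j := by
    ext x k
    simp [p, s, Pi.single_apply]
  have he : e = e.comp (Ext.mk₀ (𝟙 _)) (add_zero i) := by simp
  rw [he, hid, Ext.mk₀_sum, Ext.comp_sum]
  refine Finset.sum_eq_zero fun j _ => ?_
  rw [← Ext.mk₀_comp_mk₀, ← Ext.comp_assoc_of_third_deg_zero e (Ext.mk₀ (p j))
    (Ext.mk₀ (s j)) (add_zero i)]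
  rw [h i hi (e.comp (Ext.mk₀ (p j)) (add_zero i))]
  simp

/-- The condition passes to first syzygies. -/
theorem ExtVan.syzygy_self {X : Type u} [AddCommGroup X] [Module R X] {n : ℕ}
    (f : (Fin n → R) →ₗ[R] X) (hf : Function.Surjective f)
    (h1 : ExtVan (ModuleCat.of R X) (ModuleCat.of R X))
    (h2 : ExtVan (ModuleCat.of R X) (ModuleCat.of R R)) :
    ExtVan (ModuleCat.of R (LinearMap.ker f)) (ModuleCat.of R (LinearMap.ker f)) := by
  intro i hi e
  obtain ⟨k, rfl⟩ : ∃ k, i = k + 1 := ⟨i - 1, by omega⟩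
  have hS := LinearMap.shortExact_shortComplexKer hf
  have hN : ExtVan (ModuleCat.of R (LinearMap.ker f)) (ModuleCat.of R X) := ExtVan.syzygy f hf h1
  have hF : ExtVan (ModuleCat.of R (LinearMap.ker f)) (ModuleCat.of R (Fin n → R)) :=
    (ExtVan.syzygy f hf h2).pi_target n
  obtain ⟨x₃, hx₃⟩ := Ext.covariant_sequence_exact₁ (ModuleCat.of R (LinearMap.ker f)) hS e
    (hF (k + 1) (by omega) _) (n₀ := k) rfl
  rcases Nat.eq_zero_or_pos k with rfl | hk
  · obtain ⟨φ, rfl⟩ := Ext.mk₀_bijective _ _ |>.2 x₃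
    have hone : ∀ e : Ext (ModuleCat.of R X) (ModuleCat.of R X) 1, e = 0 := h1 1 le_rfl
    obtain ⟨φ', hφ'⟩ := extend_of_ext_one f hf hone φ.hom
    obtain ⟨ψ, hψ⟩ := Module.projective_lifting_property f φ' hf
    let θ : ModuleCat.of R (LinearMap.ker f) ⟶ ModuleCat.of R (Fin n → R) :=
      ModuleCat.ofHom (ψ ∘ₗ (LinearMap.ker f).subtype)
    have hφ : φ = θ ≫ (f.shortComplexKer).g := by
      ext x
      have h3 := hφ' x
      have h4 := congrArg (fun g => g (x : Fin n → R)) hψ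
      simp only [LinearMap.comp_apply] at h4
      simp only [θ, ModuleCat.hom_comp, ModuleCat.hom_ofHom, LinearMap.comp_apply,
        Submodule.subtype_apply]
      rw [h4, h3]
    rw [← hx₃, hφ, ← Ext.mk₀_comp_mk₀, Ext.comp_assoc_of_second_deg_zero,
      ShortComplex.ShortExact.comp_extClass]
    simp
  · rw [← hx₃, hN k hk x₃]
    simp

end Vale.Agent.P195
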