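import Mathlib
import Vale.Agent.P195.Counting

set_option linter.unusedSectionVars false
set_option linter.unusedSimpArgs false

namespace Vale.Agent.P195

universe u

open Finset

section MainCore

variable (C : Type*) [CommRing C] [IsArtinianRing C]
  {R : Type u} [Ring R] [IsLocalRing R] [Algebra C R] [Module.Finite C R]
  {M : Type u} [AddCommGroup M] [Module R M] [Module C M] [IsScalarTower C R M]
  [Module.Finite C M] (D : Res R M)

lemma JC_lt_top : JC C R < ⊤ := by
  refine lt_of_le_of_ne le_top fun h => ?_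
  have h1 : (1 : R) ∈ JC C R := by rw [h]; trivial
  exact one_not_mem_J h1

/-- The main consequence of rigidity: the radical has square zero. -/
theorem Res.main_core
    (hM : ∀ a ∈ Ring.jacobson R, ∀ b ∈ Ring.jacobson R, ∀ x : M, a • b • x = 0)
    (hVan : D.Van M) (hβ : ∀ i, 1 ≤ D.β (i + 1)) (ht : 1 ≤ D.β 0) :
    (∀ a ∈ Ring.jacobson R, ∀ b ∈ Ring.jacobson R, a * b = 0) ∧
      ∃ q d, 1 ≤ d ∧ 1 ≤ q ∧ ell (⊤ : Submodule C R) = ell (JC C R) + d ∧
        ell (JC C R) = q * d + ell (KC C R) ∧ D.β 1 * q + D.β 0 = D.β 0 * q * q := by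
  have hjr : ell (JC C R) < ell (⊤ : Submodule C R) := ell_lt_of_lt (JC_lt_top C)
  obtain ⟨d, hd⟩ : ∃ d, ell (⊤ : Submodule C R) = ell (JC C R) + d :=
    ⟨_, (Nat.add_sub_cancel' hjr.le).symm⟩
  have hd1 : 1 ≤ d := by omega
  obtain ⟨e, he⟩ := exists_gen_J_count (R := R) C
  have h1 := D.count1 C
  have h2 := D.count2 C hM hVan
  have h3 := D.count2' C hM hVan ht
  have h4 := D.count4 C
  have hb : 1 ≤ ell (D.V C) := by
    by_contra hb0
    have hb0' : ell (D.V C) = 0 := by omega
    have h20 := h2 0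
    rw [hb0'] at h20 h1
    simp only [mul_zero, add_zero] at h20 h1
    have hm : ell (⊤ : Submodule C M) = D.β 0 * d := by
      rw [hd, mul_add] at h1
      omega
    rw [hm] at h20
    have hpos : 0 < D.β (0 + 1) * (D.β 0 * d) := by
      have := hβ 0
      positivity
    omega
  have hV : D.V C ≠ ⊥ := ell_pos_iff.mp hb
  have h5 := D.count5 C hM hVan hV
  have h6 : D.β 2 * ell (⊤ : Submodule C R) + D.β 1 * ell (KC C R) =
      D.β 2 * ell (JC C R) +
        ell ((⊤ : Submodule C (Fin (D.β 2) → R)).map (rowMap C (D.a 1)) ⊔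
          piS (D.β 1) (KC C R)) := D.count6 C hM hVan hV 0
  have h6' : ell ((⊤ : Submodule C (Fin (D.β 2) → R)).map (rowMap C (D.a 1)) ⊔
      piS (D.β 1) (KC C R)) ≤ D.β 1 * ell (JC C R) := by
    rw [← ell_piS]
    exact ell_mono (D.sup_le_J C 0)
  rw [hd] at h1 h4 h5 h6 he
  obtain ⟨-, q, hq1, heq, hs, hj, hqq⟩ := numeric_main (D.β 0) d (ell (D.V C)) e (ell (JC C R))
    (ell (KC C R)) _ _ (ell (⊤ : Submodule C M)) D.β hd1 ht hβ h1 h2 h3 h4 h5 h6 h6' he
  have hsup : (⊤ : Submodule C (Fin (D.β 2) → R)).map (rowMap C (D.a 1)) ⊔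
      piS (D.β 1) (KC C R) = piS (D.β 1) (JC C R) := by
    apply ell_eq_of_le_of_le (D.sup_le_J C 0)
    rw [ell_piS, hs]
  exact ⟨D.K_zero C hM hVan hV ht hsup, q, d, hd1, hq1, hd, hj, hqq⟩

end MainCore

section Positivity

variable {R : Type u} [Ring R] [IsLocalRing R]
  {M : Type u} [AddCommGroup M] [Module R M] (D : Res R M)

lemma Res.beta_zero_pos (h : 1 ≤ D.β 1) : 1 ≤ D.β 0 := by
  classical
  by_contra h0
  have h00 : D.β 0 = 0 := by omega
  have : IsEmpty (Fin (D.β 0)) := by rw [h00]; infer_instance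
  let l₀ : Fin (D.β 1) := ⟨0, h⟩
  obtain ⟨s, hs⟩ := (D.ex 0 (Pi.single l₀ 1)).mp (fun j => (IsEmpty.false j).elim)
  have h1 := hs l₀
  rw [Pi.single_eq_same] at h1
  apply one_not_mem_J (R := R)
  rw [h1]
  exact Submodule.sum_mem _ fun m _ => Ideal.mul_mem_left _ _ (D.aJ _ _ _)

lemma Res.beta_succ_pos (hnil : IsNilpotent (Ring.jacobson R)) (i : ℕ) (h : 1 ≤ D.β (i + 1)) :
    1 ≤ D.β (i + 2) := by
  classical
  by_contra h0
  have h00 : D.β (i + 2) = 0 := by omega
  have : IsEmpty (Fin (D.β (i + 2))) := by rw [h00]; infer_instance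
  let l₀ : Fin (D.β (i + 1)) := ⟨0, h⟩
  obtain ⟨σ, hσ, hσJ⟩ := exists_left_annihilator hnil
  have h1 : ∀ j, ∑ l, (Pi.single l₀ σ : Fin (D.β (i + 1)) → R) l * D.a i l j = 0 := by
    intro j
    rw [Finset.sum_eq_single l₀]
    · rw [Pi.single_eq_same]; exact hσJ _ (D.aJ _ _ _)
    · intro b _ hb; simp [hb]
    · simp
  obtain ⟨s, hs⟩ := (D.ex i _).mp h1
  have h2 := hs l₀
  rw [Pi.single_eq_same] at h2
  apply hσ
  rw [h2]
  exact Finset.sum_eq_zero fun m _ => (IsEmpty.false m).elim

lemma Res.beta_all_pos (hnil : IsNilpotent (Ring.jacobson R)) (h : 1 ≤ D.β 1) (i : ℕ) :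
    1 ≤ D.β (i + 1) := by
  induction i with
  | zero => exact h
  | succ i ih => exact D.beta_succ_pos hnil i ih

omit [IsLocalRing R] in
lemma Res.free_of_beta_one (h : D.β 1 = 0) : Module.Free R M := by
  have : IsEmpty (Fin (D.β 1)) := by rw [h]; infer_instance
  let f : (Fin (D.β 0) → R) →ₗ[R] M := Fintype.linearCombination R D.g
  have hf : ∀ r, f r = ∑ j, r j • D.g j := fun r => by
    simp [f, Fintype.linearCombination_apply]
  have hinj : Function.Injective f := by
    rw [← LinearMap.ker_eq_bot, LinearMap.ker_eq_bot']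
    intro r hr
    rw [hf] at hr
    obtain ⟨s, hs⟩ := (D.ex0 r).mp hr
    funext j
    rw [hs j]
    simp
  have hsurj : Function.Surjective f := by
    intro y
    have hy : y ∈ Submodule.span R (Set.range D.g) := by rw [D.gen]; trivial
    obtain ⟨c, hc⟩ := (Submodule.mem_span_range_iff_exists_fun R).mp hy
    exact ⟨c, by rw [hf, hc]⟩
  exact Module.Free.of_equiv (LinearEquiv.ofBijective f ⟨hinj, hsurj⟩)

end Positivity

section Final

variable (C : Type*) [CommRing C] [IsArtinianRing C]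
  {R : Type u} [Ring R] [IsLocalRing R] [Algebra C R] [Module.Finite C R]
  {M : Type u} [AddCommGroup M] [Module R M] [Module C M] [IsScalarTower C R M]
  [Module.Finite C M] (D : Res R M)

include C in
lemma isNilpotent_J : IsNilpotent (Ring.jacobson R) := by
  have : IsArtinianRing R := isArtinian_of_tower C (inferInstance : IsArtinian C R)
  exact IsSemiprimaryRing.isNilpotent

include C in
/-- Rigidity forces freeness or vanishing of the square of the radical. -/
theorem Res.free_or_sq_zero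
    (hM : ∀ a ∈ Ring.jacobson R, ∀ b ∈ Ring.jacobson R, ∀ x : M, a • b • x = 0)
    (hVan : D.Van M) :
    Module.Free R M ∨ ∀ a ∈ Ring.jacobson R, ∀ b ∈ Ring.jacobson R, a * b = 0 := by
  by_cases h : D.β 1 = 0
  · exact Or.inl (D.free_of_beta_one h)
  · have h1 : 1 ≤ D.β 1 := by omega
    exact Or.inr (D.main_core C hM hVan (D.beta_all_pos (isNilpotent_J C) h1)
      (D.beta_zero_pos h1)).1

include C in
/-- Rigidity together with the first vanishing against the ring forces freeness. -/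
theorem Res.free_of_van
    (hM : ∀ a ∈ Ring.jacobson R, ∀ b ∈ Ring.jacobson R, ∀ x : M, a • b • x = 0)
    (hVan : D.Van M)
    (hVanR : ∀ w : Fin (D.β (0 + 1)) → R, (∀ m, ∑ l, D.a (0 + 1) m l • w l = 0) →
      ∃ u : Fin (D.β 0) → R, ∀ l, w l = ∑ j, D.a 0 l j • u j) : Module.Free R M := by
  by_cases h : D.β 1 = 0
  · exact D.free_of_beta_one h
  · exfalso
    have h1 : 1 ≤ D.β 1 := by omega
    have ht := D.beta_zero_pos h1
    obtain ⟨hK, q, d, hd1, hq1, hd, hj, hqq⟩ :=
      D.main_core C hM hVan (D.beta_all_pos (isNilpotent_J C) h1) ht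
    have hk0 : ell (KC C R) = 0 := by
      have hbot : KC C R = ⊥ := by
        rw [eq_bot_iff]
        intro x hx
        have hx' : x ∈ Ring.jacobson R * Ring.jacobson R := hx
        refine Submodule.mul_induction_on hx' (fun u hu v hv => ?_) (fun _ _ h3 h4 => ?_)
        · rw [hK u hu v hv]; exact zero_mem _
        · exact add_mem h3 h4
      rw [hbot]
      simp [ell]
    have h8 := D.count8 C hK hVanR
    rw [hd, mul_add] at h8
    have hj' : ell (JC C R) = q * d := by omega
    exact numeric_final (D.β 0) d q (ell (JC C R)) (D.β 1) hd1 ht h1 hq1 hj' hqq (by omega)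

end Final

end Vale.Agent.P195
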