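import Mathlib
import Vale.Agent.P195.ExtLemmas
import Vale.Agent.P195.MainCore

set_option linter.unusedSectionVars false
set_option linter.unusedSimpArgs false

namespace Vale.Agent.P195

universe u

open CategoryTheory Abelian

/-- A bundled finitely generated module. -/
structure FM (R : Type u) [Ring R] where
  X : Type u
  [acg : AddCommGroup X]
  [mod : Module R X]
  [fin : Module.Finite R X]

attribute [instance] FM.acg FM.mod FM.fin

section Tower

variable {R : Type u} [Ring R] [IsLocalRing R]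

noncomputable def FM.n (Z : FM R) : ℕ := Classical.choose (exists_min_gen (R := R) Z.X)

noncomputable def FM.gen (Z : FM R) : Fin Z.n → Z.X :=
  Classical.choose (Classical.choose_spec (exists_min_gen (R := R) Z.X))

lemma FM.span (Z : FM R) : Submodule.span R (Set.range Z.gen) = ⊤ :=
  (Classical.choose_spec (Classical.choose_spec (exists_min_gen (R := R) Z.X))).1

lemma FM.rel (Z : FM R) (r : Fin Z.n → R) (h : ∑ j, r j • Z.gen j = 0) (j : Fin Z.n) :
    r j ∈ Ring.jacobson R :=
  (Classical.choose_spec (Classical.choose_spec (exists_min_gen (R := R) Z.X))).2 r h j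

noncomputable def FM.lc (Z : FM R) : (Fin Z.n → R) →ₗ[R] Z.X :=
  Fintype.linearCombination R Z.gen

lemma FM.lc_apply (Z : FM R) (r : Fin Z.n → R) : Z.lc r = ∑ j, r j • Z.gen j := by
  simp [FM.lc, Fintype.linearCombination_apply]

lemma FM.lc_surj (Z : FM R) : Function.Surjective Z.lc := by
  intro y
  have hy : y ∈ Submodule.span R (Set.range Z.gen) := by rw [Z.span]; trivial
  obtain ⟨c, hc⟩ := (Submodule.mem_span_range_iff_exists_fun R).mp hy
  exact ⟨c, by rw [Z.lc_apply, hc]⟩

variable [IsNoetherian R R]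

noncomputable def FM.next (Z : FM R) : FM R where
  X := LinearMap.ker Z.lc
  fin := Module.Finite.of_fg (IsNoetherian.noetherian _)

/-- The inclusion of the next module. -/
noncomputable def FM.inc (Z : FM R) : Z.next.X →ₗ[R] (Fin Z.n → R) := (LinearMap.ker Z.lc).subtype

lemma FM.inc_inj (Z : FM R) : Function.Injective Z.inc :=
  (LinearMap.ker Z.lc).injective_subtype

lemma FM.lc_inc (Z : FM R) (x : Z.next.X) : Z.lc (Z.inc x) = 0 :=
  (show LinearMap.ker Z.lc from x).2

lemma FM.exists_inc (Z : FM R) (r : Fin Z.n → R) (hr : Z.lc r = 0) : ∃ x, Z.inc x = r :=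
  ⟨(⟨r, hr⟩ : LinearMap.ker Z.lc), rfl⟩

/-- The entries of a generator of the kernel. -/
noncomputable def FM.row (Z : FM R) (l : Fin Z.next.n) : Fin Z.n → R := Z.inc (Z.next.gen l)

lemma FM.row_ker (Z : FM R) (l : Fin Z.next.n) : ∑ j, Z.row l j • Z.gen j = 0 := by
  have h : Z.lc (Z.row l) = 0 := Z.lc_inc _
  rwa [Z.lc_apply] at h

lemma FM.row_mem (Z : FM R) (l : Fin Z.next.n) (j : Fin Z.n) : Z.row l j ∈ Ring.jacobson R :=
  Z.rel _ (Z.row_ker l) j

lemma FM.inc_sum (Z : FM R) (s : Fin Z.next.n → R) (j : Fin Z.n) :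
    Z.inc (∑ l, s l • Z.next.gen l) j = ∑ l, s l * Z.row l j := by
  rw [map_sum, Finset.sum_apply]
  refine Finset.sum_congr rfl fun l _ => ?_
  rw [map_smul]
  rfl

lemma FM.ex_step (Z : FM R) (r : Fin Z.n → R) :
    ∑ j, r j • Z.gen j = 0 ↔ ∃ s : Fin Z.next.n → R, ∀ j, r j = ∑ l, s l * Z.row l j := by
  constructor
  · intro h
    have hr : Z.lc r = 0 := by rw [Z.lc_apply]; exact h
    obtain ⟨x, rfl⟩ := Z.exists_inc r hr
    obtain ⟨s, rfl⟩ := Z.next.lc_surj x
    refine ⟨s, fun j => ?_⟩
    rw [FM.lc_apply, FM.inc_sum]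
  · rintro ⟨s, hs⟩
    calc ∑ j, r j • Z.gen j = ∑ j, (∑ l, s l * Z.row l j) • Z.gen j :=
          Finset.sum_congr rfl fun j _ => by rw [hs j]
      _ = ∑ l, s l • ∑ j, Z.row l j • Z.gen j := by
          simp only [Finset.sum_smul, Finset.smul_sum, mul_smul]
          rw [Finset.sum_comm]
      _ = 0 := by simp [Z.row_ker]

/-- The rows annihilated by a vector, in terms of the next generators. -/
lemma FM.sum_row_eq_zero_iff (Z : FM R) (r : Fin Z.next.n → R) :
    (∀ j, ∑ l, r l * Z.row l j = 0) ↔ ∑ l, r l • Z.next.gen l = 0 := by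
  constructor
  · intro h
    apply Z.inc_inj
    rw [map_zero]
    funext j
    rw [FM.inc_sum]
    exact h j
  · intro h j
    rw [← FM.inc_sum, h, map_zero]
    rfl

/-- The tower of syzygies. -/
noncomputable def tower (Z : FM R) : ℕ → FM R
  | 0 => Z
  | i + 1 => (tower Z i).next

/-- The elementary resolution attached to a module. -/
noncomputable def FM.res (Z : FM R) : Res R Z.X where
  β i := (tower Z i).n
  a i l j := (tower Z i).row l j
  g := Z.gen
  gen := Z.span
  ex0 := fun r => Z.ex_step r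
  ex := fun i r => ((tower Z i).sum_row_eq_zero_iff r).trans ((tower Z i).next.ex_step r)
  aJ := fun i l j => (tower Z i).row_mem l j

/-- One step of the lifting argument. -/
lemma FM.van_step (Z : FM R) (Y : ModuleCat.{u} R)
    (hExt : ∀ e : Ext (ModuleCat.of R Z.X) Y 1, e = 0) (w : Fin Z.next.n → Y)
    (hw : ∀ m, ∑ l, Z.next.row m l • w l = 0) :
    ∃ u : Fin Z.n → Y, ∀ l, w l = ∑ j, Z.row l j • u j := by
  classical
  let L : (Fin Z.next.n → R) →ₗ[R] Y := Fintype.linearCombination R w
  have hL : ∀ r, L r = ∑ l, r l • w l := fun r => by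
    simp [L, Fintype.linearCombination_apply]
  have hle : LinearMap.ker Z.next.lc ≤ LinearMap.ker L := by
    intro r hr
    have hr' : ∑ j, r j • Z.next.gen j = 0 := by
      rw [LinearMap.mem_ker, Z.next.lc_apply] at hr; exact hr
    obtain ⟨s, hs⟩ := (Z.next.ex_step r).mp hr'
    rw [LinearMap.mem_ker, hL]
    calc ∑ l, r l • w l = ∑ l, (∑ m, s m * Z.next.row m l) • w l :=
          Finset.sum_congr rfl fun j _ => by rw [hs j]
      _ = ∑ m, s m • ∑ l, Z.next.row m l • w l := by
          simp only [Finset.sum_smul, Finset.smul_sum, mul_smul]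
          rw [Finset.sum_comm]
      _ = 0 := by simp [hw]
  let h : Z.next.X →ₗ[R] Y :=
    (LinearMap.ker Z.next.lc).liftQ L hle ∘ₗ
      (LinearMap.quotKerEquivOfSurjective Z.next.lc Z.next.lc_surj).symm.toLinearMap
  have hh : ∀ r, h (Z.next.lc r) = L r := by
    intro r
    have h1 : (LinearMap.quotKerEquivOfSurjective Z.next.lc Z.next.lc_surj).symm (Z.next.lc r) =
        Submodule.Quotient.mk r := by
      rw [LinearEquiv.symm_apply_eq]
      rfl
    change (LinearMap.ker Z.next.lc).liftQ L hle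
      ((LinearMap.quotKerEquivOfSurjective Z.next.lc Z.next.lc_surj).symm (Z.next.lc r)) = _
    rw [h1]
    rfl
  obtain ⟨φ, hφ⟩ := extend_of_ext_one Z.lc Z.lc_surj hExt h
  have hφ' : ∀ x : Z.next.X, φ (Z.inc x) = h x := hφ
  refine ⟨fun j => φ (Pi.single j 1), fun l => ?_⟩
  have h1 : w l = L (Pi.single l 1) := by
    rw [hL, Finset.sum_eq_single l]
    · simp
    · intro b _ hb; simp [hb]
    · simp
  have h2 : Z.next.lc (Pi.single l 1) = Z.next.gen l := by
    rw [Z.next.lc_apply, Finset.sum_eq_single l]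
    · simp
    · intro b _ hb; simp [hb]
    · simp
  rw [h1, ← hh, h2, ← hφ']
  have h3 : Z.inc (Z.next.gen l) = ∑ j, Z.row l j • (Pi.single j 1 : Fin Z.n → R) := by
    funext k
    change Z.row l k = _
    simp [Finset.sum_apply, Pi.single_apply]
  rw [h3, map_sum]
  simp

lemma tower_extVan (Z : FM R) (Y : ModuleCat.{u} R) (h : ExtVan (ModuleCat.of R Z.X) Y) (i : ℕ) :
    ExtVan (ModuleCat.of R (tower Z i).X) Y := by
  induction i with
  | zero => exact h
  | succ i ih => exact ExtVan.syzygy (tower Z i).lc (tower Z i).lc_surj ih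

/-- Vanishing of `Ext` against `Y` in positive degrees gives exactness for the resolution. -/
lemma FM.res_van (Z : FM R) (Y : ModuleCat.{u} R) (h : ExtVan (ModuleCat.of R Z.X) Y) :
    Z.res.Van Y := by
  intro i w hw
  exact (tower Z i).van_step Y (tower_extVan Z Y h i 1 le_rfl) w hw

/-- `Ext¹` vanishing gives exactness in the first degree. -/
lemma FM.res_van_zero (Z : FM R) (Y : ModuleCat.{u} R)
    (h : ∀ e : Ext (ModuleCat.of R Z.X) Y 1, e = 0)
    (w : Fin (Z.res.β (0 + 1)) → Y) (hw : ∀ m, ∑ l, Z.res.a (0 + 1) m l • w l = 0) :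
    ∃ u : Fin (Z.res.β 0) → Y, ∀ l, w l = ∑ j, Z.res.a 0 l j • u j :=
  Z.van_step Y h w hw

end Tower

end Vale.Agent.P195
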