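import Mathlib
import Vale.Agent.P195.Tower

set_option linter.unusedSectionVars false

namespace Vale.Agent.P195

universe u v

open CategoryTheory Abelian

section Final

variable (C : Type v) [CommRing C] [IsArtinianRing C]
  (R : Type u) [Ring R] [Algebra C R] [Module.Finite C R] [IsLocalRing R]

include C in
/-- Modules of Loewy length at most two. -/
theorem free_of_rigid_loewy_two (M : ModuleCat.{u} R) [Module.Finite R M]
    (hM : ∀ a ∈ Ring.jacobson R, ∀ b ∈ Ring.jacobson R, ∀ x : M, a • b • x = 0)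
    (hMM : ∀ i : ℕ, 1 ≤ i → ∀ e : Ext M M i, e = 0)
    (hor : (∀ e : Ext M (ModuleCat.of R R) 1, e = 0) ∨
      ¬ ∀ a ∈ Ring.jacobson R, ∀ b ∈ Ring.jacobson R, a * b = 0) :
    Module.Free R M := by
  have : IsNoetherian R R := isNoetherianRing_of_finite C
  letI : Module C M := Module.compHom M (algebraMap C R)
  have : IsScalarTower C R M := ⟨fun c r x => by
    change (c • r) • x = (algebraMap C R c) • (r • x)
    rw [Algebra.smul_def, mul_smul]⟩
  have : Module.Finite C M := Module.Finite.trans R M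
  let Z : FM R := ⟨M⟩
  have hVan : Z.res.Van M := Z.res_van M hMM
  rcases hor with h1 | h2
  · exact Z.res.free_of_van C hM hVan (Z.res_van_zero (ModuleCat.of R R) h1)
  · exact (Z.res.free_or_sq_zero C hM hVan).resolve_right h2

include C in
/-- Local Artin algebras with radical cube zero. -/
theorem free_of_cube_zero
    (hJ : ∀ a ∈ Ring.jacobson R, ∀ b ∈ Ring.jacobson R, ∀ c ∈ Ring.jacobson R, a * b * c = 0)
    (M : ModuleCat.{u} R) [Module.Finite R M]
    (hMM : ∀ i : ℕ, 1 ≤ i → ∀ e : Ext M M i, e = 0)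
    (hMR : ∀ i : ℕ, 1 ≤ i → ∀ e : Ext M (ModuleCat.of R R) i, e = 0) :
    Module.Free R M := by
  have : IsNoetherian R R := isNoetherianRing_of_finite C
  let Z : FM R := ⟨M⟩
  have hcoord : ∀ (x : Z.next.X) (j : Fin Z.n), Z.inc x j ∈ Ring.jacobson R := fun x j =>
    Z.rel _ (by rw [← Z.lc_apply]; exact Z.lc_inc x) j
  have hN : ∀ a ∈ Ring.jacobson R, ∀ b ∈ Ring.jacobson R, ∀ x : Z.next.X, a • b • x = 0 := by
    intro a ha b hb x
    apply Z.inc_inj
    rw [map_smul, map_smul, map_zero]
    funext j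
    simp only [Pi.smul_apply, smul_eq_mul, Pi.zero_apply, ← mul_assoc]
    exact hJ a ha b hb _ (hcoord x j)
  have hNN : ExtVan (ModuleCat.of R Z.next.X) (ModuleCat.of R Z.next.X) :=
    ExtVan.syzygy_self Z.lc Z.lc_surj hMM hMR
  have hNR : ExtVan (ModuleCat.of R Z.next.X) (ModuleCat.of R R) :=
    ExtVan.syzygy Z.lc Z.lc_surj hMR
  have hfree : Module.Free R Z.next.X :=
    free_of_rigid_loewy_two C R (ModuleCat.of R Z.next.X) hN hNN (Or.inl (hNR 1 le_rfl))
  obtain ⟨σ, hσ, hσJ⟩ := exists_left_annihilator (isNilpotent_J (R := R) C)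
  have hσN : ∀ x : Z.next.X, σ • x = 0 := by
    intro x
    apply Z.inc_inj
    rw [map_smul, map_zero]
    funext j
    exact hσJ _ (hcoord x j)
  have hsub : Subsingleton Z.next.X := by
    rcases subsingleton_or_nontrivial Z.next.X with h | h
    · exact h
    · exfalso
      let b := Module.Free.chooseBasis R Z.next.X
      obtain ⟨i⟩ : Nonempty (Module.Free.ChooseBasisIndex R Z.next.X) := b.index_nonempty
      have h1 := congrArg (fun y => b.repr y i) (hσN (b i))
      simp [map_smul] at h1
      exact hσ h1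
  have hinj : Function.Injective Z.lc := by
    rw [← LinearMap.ker_eq_bot, LinearMap.ker_eq_bot']
    intro r hr
    obtain ⟨x, rfl⟩ := Z.exists_inc r hr
    rw [Subsingleton.elim x 0, map_zero]
  exact Module.Free.of_equiv (LinearEquiv.ofBijective Z.lc ⟨hinj, Z.lc_surj⟩)

end Final

end Vale.Agent.P195
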